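import Vale.Agent.P201.Step

/-! P201: residual step and descending series. -/
namespace P201

variable {K : Type*} [Field K] {G : Type*} [Group G]

/-- a group algebra that is residually (on finite sets) a domain is a domain -/
theorem resid (h : ∀ S : Finset G, ∃ M : Subgroup G, ∃ _ : M.Normal,
      (∀ x ∈ S, ∀ y ∈ S, (x : G ⧸ M) = (y : G ⧸ M) → x = y) ∧
      NoZeroDivisors (MonoidAlgebra K (G ⧸ M))) :
    NoZeroDivisors (MonoidAlgebra K G) := by
  classical
  refine ⟨fun {α β} hαβ => ?_⟩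
  by_contra hcon
  push Not at hcon
  obtain ⟨hα, hβ⟩ := hcon
  obtain ⟨M, hM, hinj, hdom⟩ := h (α.coeff.support ∪ β.coeff.support)
  let φ := MonoidAlgebra.mapDomainRingHom K (QuotientGroup.mk' M)
  have hne : ∀ γ : MonoidAlgebra K G, γ ≠ 0 →
      γ.coeff.support ⊆ α.coeff.support ∪ β.coeff.support → φ γ ≠ 0 := by
    intro γ hγ hsub h0
    have hsupp : γ.coeff.support.Nonempty := by
      rw [Finsupp.support_nonempty_iff]
      intro h0
      exact hγ (MonoidAlgebra.coeff_eq_zero.1 h0)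
    obtain ⟨g₀, hg₀⟩ := hsupp
    have h1 : (φ γ).coeff (QuotientGroup.mk' M g₀) = γ.coeff g₀ := by
      have e1 : (φ γ).coeff = Finsupp.mapDomain (QuotientGroup.mk' M) γ.coeff := rfl
      rw [e1, Finsupp.mapDomain, Finsupp.sum, Finsupp.finsetSum_apply]
      rw [Finset.sum_eq_single g₀]
      · simp
      · intro g hg hne
        rw [Finsupp.single_apply, if_neg]
        intro he
        exact hne (hinj g (hsub hg) g₀ (hsub hg₀) he)
      · intro h; exact absurd hg₀ h
    rw [h0, MonoidAlgebra.coeff_zero, Finsupp.zero_apply] at h1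
    exact (Finsupp.mem_support_iff.1 hg₀) h1.symm
  have h2 : φ α * φ β = 0 := by rw [← map_mul, hαβ, map_zero]
  rcases hdom.eq_zero_or_eq_zero_of_mul_eq_zero h2 with h3 | h3
  · exact hne α hα Finset.subset_union_left h3
  · exact hne β hβ Finset.subset_union_right h3

theorem chain (N : ℕ → Subgroup G) [hN : ∀ i, (N i).Normal] (hanti : Antitone N)
    (hinf : ⨅ i, N i = ⊥) (χ : ∀ i, (G ⧸ N i) →* ℤˣ)
    (hact : ∀ i, ∀ z ∈ N i, ∀ g : G,
      g * z * g⁻¹ * (z ^ ((χ i (g : G ⧸ N i) : ℤˣ) : ℤ))⁻¹ ∈ N (i + 1))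
    (htf : ∀ i, ∀ z ∈ N i, ∀ n : ℕ, 0 < n → z ^ n ∈ N (i + 1) → z ∈ N (i + 1))
    (hQ : NoZeroDivisors (MonoidAlgebra K (G ⧸ N 0))) :
    NoZeroDivisors (MonoidAlgebra K G) := by
  classical
  have hD : ∀ i, NoZeroDivisors (MonoidAlgebra K (G ⧸ N i)) := by
    intro i
    induction i with
    | zero => exact hQ
    | succ i ih =>
      have hle : N (i + 1) ≤ (N i).comap (MonoidHom.id G) := by
        rw [Subgroup.comap_id]; exact hanti (Nat.le_succ i)
      let f : (G ⧸ N (i + 1)) →* (G ⧸ N i) := QuotientGroup.map _ _ (MonoidHom.id G) hle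
      have hfmk : ∀ g : G, f (g : G ⧸ N (i + 1)) = (g : G ⧸ N i) := fun g => rfl
      refine step f ?_ (χ i) ?_ ?_ ih
      · intro q
        obtain ⟨g, rfl⟩ := QuotientGroup.mk_surjective q
        exact ⟨(g : G ⧸ N (i + 1)), rfl⟩
      · intro z hz g
        obtain ⟨z, rfl⟩ := QuotientGroup.mk_surjective z
        obtain ⟨g, rfl⟩ := QuotientGroup.mk_surjective g
        have hz' : z ∈ N i := by
          have := MonoidHom.mem_ker.1 hz
          rw [hfmk] at this
          exact (QuotientGroup.eq_one_iff z).1 this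
        have h1 := hact i z hz' g
        rw [hfmk]
        have h2 := (QuotientGroup.eq_one_iff _).2 h1
        rw [QuotientGroup.mk_mul, QuotientGroup.mk_inv, mul_inv_eq_one] at h2
        exact h2
      · intro z hz n hn hzn
        obtain ⟨z, rfl⟩ := QuotientGroup.mk_surjective z
        have hz' : z ∈ N i := by
          have := MonoidHom.mem_ker.1 hz
          rw [hfmk] at this
          exact (QuotientGroup.eq_one_iff z).1 this
        have h1 : z ^ n ∈ N (i + 1) := (QuotientGroup.eq_one_iff _).1 hzn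
        exact (QuotientGroup.eq_one_iff z).2 (htf i z hz' n hn h1)
  refine resid fun S => ?_
  have hex : ∀ p : G × G, p.1 ≠ p.2 → ∃ i, p.1⁻¹ * p.2 ∉ N i := by
    intro p hp
    by_contra hcon
    push Not at hcon
    have h1 : p.1⁻¹ * p.2 ∈ ⨅ i, N i := Subgroup.mem_iInf.2 hcon
    rw [hinf, Subgroup.mem_bot, inv_mul_eq_one] at h1
    exact hp h1
  let I : G × G → ℕ := fun p => if h : p.1 ≠ p.2 then (hex p h).choose else 0
  have hI : ∀ p : G × G, p.1 ≠ p.2 → p.1⁻¹ * p.2 ∉ N (I p) := by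
    intro p hp
    simp only [I, dif_pos hp]
    exact (hex p hp).choose_spec
  let m := (S ×ˢ S).sup I
  refine ⟨N m, hN m, fun x hx y hy hxy => ?_, hD m⟩
  by_contra hne
  have h1 : I (x, y) ≤ m := Finset.le_sup (f := I) (Finset.mem_product.2 ⟨hx, hy⟩)
  exact hI (x, y) hne (hanti h1 (QuotientGroup.eq.1 hxy))

end P201
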