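import Vale.Agent.P201.Step

/-! P201: local embeddability and unique product quotients. -/
namespace P201

universe w

variable {K : Type*} [Field K] {G : Type*} [Group G]

theorem supp_nonempty {γ : MonoidAlgebra K G} (hγ : γ ≠ 0) : γ.coeff.support.Nonempty := by
  rw [Finsupp.support_nonempty_iff]
  intro h0
  exact hγ (MonoidAlgebra.coeff_eq_zero.1 h0)

/-- local embeddability into groups with a domain group algebra -/
theorem local_embed
    (h : ∀ S : Finset G, ∃ (H : Type w) (_ : Group H) (φ : G → H),
      Set.InjOn φ (S : Set G) ∧ (∀ x ∈ S, ∀ y ∈ S, φ (x * y) = φ x * φ y) ∧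
      NoZeroDivisors (MonoidAlgebra K H)) :
    NoZeroDivisors (MonoidAlgebra K G) := by
  classical
  refine ⟨fun {α β} hαβ => ?_⟩
  by_contra hcon
  push Not at hcon
  obtain ⟨hα, hβ⟩ := hcon
  obtain ⟨H, _, φ, hinj, hmul, hdom⟩ := h (α.coeff.support ∪ β.coeff.support)
  let P : MonoidAlgebra K G → MonoidAlgebra K H := fun γ =>
    ∑ g ∈ γ.coeff.support, MonoidAlgebra.single (φ g) (γ.coeff g)
  have hne : ∀ γ : MonoidAlgebra K G, γ ≠ 0 →
      γ.coeff.support ⊆ α.coeff.support ∪ β.coeff.support → P γ ≠ 0 := by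
    intro γ hγ hsub h0
    obtain ⟨g₀, hg₀⟩ := supp_nonempty hγ
    have h1 : (P γ).coeff (φ g₀) = γ.coeff g₀ := by
      simp only [P]
      rw [MonoidAlgebra.coeff_sum, Finsupp.finsetSum_apply, Finset.sum_eq_single g₀]
      · simp
      · intro g hg hne
        rw [MonoidAlgebra.coeff_single, Finsupp.single_apply, if_neg]
        intro he
        exact hne (hinj (hsub hg) (hsub hg₀) he)
      · intro h; exact absurd hg₀ h
    rw [h0, MonoidAlgebra.coeff_zero, Finsupp.zero_apply] at h1
    exact (Finsupp.mem_support_iff.1 hg₀) h1.symm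
  have h2 : P α * P β = 0 := by
    have h3 := sum_mul (K := K) (V := MonoidAlgebra K H)
      (fun w => MonoidAlgebra.single (φ w) 1) α β
    rw [hαβ] at h3
    simp only [MonoidAlgebra.coeff_zero, Finsupp.sum_zero_index] at h3
    refine Eq.trans ?_ h3.symm
    simp only [P]
    rw [Finset.sum_mul_sum]
    refine Finset.sum_congr rfl fun g hg => Finset.sum_congr rfl fun k hk => ?_
    rw [MonoidAlgebra.single_mul_single,
      hmul g (Finset.mem_union_left _ hg) k (Finset.mem_union_right _ hk)]
    simp
  rcases hdom.eq_zero_or_eq_zero_of_mul_eq_zero h2 with h3 | h3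
  · exact hne α hα Finset.subset_union_left h3
  · exact hne β hβ Finset.subset_union_right h3

/-- extensions with unique product quotient -/
theorem up_quotient (N : Subgroup G) [N.Normal] (hU : UniqueProds (G ⧸ N))
    (hN : NoZeroDivisors (MonoidAlgebra K N)) : NoZeroDivisors (MonoidAlgebra K G) := by
  classical
  refine ⟨fun {α β} hαβ => ?_⟩
  by_contra hcon
  push Not at hcon
  obtain ⟨hα, hβ⟩ := hcon
  let f : G →* G ⧸ N := QuotientGroup.mk' N
  obtain ⟨q, hq, r, hr, huniq⟩ := hU.uniqueMul_of_nonempty
    (A := α.coeff.support.image f) (B := β.coeff.support.image f)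
    ((supp_nonempty hα).image f) ((supp_nonempty hβ).image f)
  obtain ⟨s, hs, rfl⟩ := Finset.mem_image.1 hq
  obtain ⟨t, ht, rfl⟩ := Finset.mem_image.1 hr
  -- components
  have hmemα : ∀ g, f g = f s → s⁻¹ * g ∈ N := fun g hg => QuotientGroup.eq.1 hg.symm
  have hmemβ : ∀ g, f g = f t → g * t⁻¹ ∈ N := fun g hg => by
    have : f (g * t⁻¹) = 1 := by rw [map_mul, map_inv, hg, mul_inv_cancel]
    exact (QuotientGroup.eq_one_iff _).1 this
  let a : MonoidAlgebra K N := ∑ g ∈ α.coeff.support,
    if h : f g = f s then MonoidAlgebra.single ⟨s⁻¹ * g, hmemα g h⟩ (α.coeff g) else 0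
  let b : MonoidAlgebra K N := ∑ g ∈ β.coeff.support,
    if h : f g = f t then MonoidAlgebra.single ⟨g * t⁻¹, hmemβ g h⟩ (β.coeff g) else 0
  have ha : a ≠ 0 := by
    intro h0
    have h1 : a.coeff 1 = α.coeff s := by
      simp only [a]
      rw [MonoidAlgebra.coeff_sum, Finsupp.finsetSum_apply, Finset.sum_eq_single s]
      · rw [dif_pos rfl, MonoidAlgebra.coeff_single, Finsupp.single_apply, if_pos]
        apply Subtype.ext
        simp
      · intro g hg hne
        split_ifs with h
        · rw [MonoidAlgebra.coeff_single, Finsupp.single_apply, if_neg]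
          intro he
          have h2 := congrArg Subtype.val he
          simp only [OneMemClass.coe_one] at h2
          exact hne (inv_mul_eq_one.1 h2).symm
        · simp
      · intro h; exact absurd hs h
    rw [h0, MonoidAlgebra.coeff_zero, Finsupp.zero_apply] at h1
    exact (Finsupp.mem_support_iff.1 hs) h1.symm
  have hb : b ≠ 0 := by
    intro h0
    have h1 : b.coeff 1 = β.coeff t := by
      simp only [b]
      rw [MonoidAlgebra.coeff_sum, Finsupp.finsetSum_apply, Finset.sum_eq_single t]
      · rw [dif_pos rfl, MonoidAlgebra.coeff_single, Finsupp.single_apply, if_pos]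
        apply Subtype.ext
        simp
      · intro g hg hne
        split_ifs with h
        · rw [MonoidAlgebra.coeff_single, Finsupp.single_apply, if_neg]
          intro he
          have h2 := congrArg Subtype.val he
          simp only [OneMemClass.coe_one] at h2
          exact hne (mul_inv_eq_one.1 h2)
        · simp
      · intro h; exact absurd ht h
    rw [h0, MonoidAlgebra.coeff_zero, Finsupp.zero_apply] at h1
    exact (Finsupp.mem_support_iff.1 ht) h1.symm
  have hab : a * b = 0 := by
    have h3 := sum_mul (K := K) (V := MonoidAlgebra K N)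
      (fun w => if h : s⁻¹ * w * t⁻¹ ∈ N then MonoidAlgebra.single ⟨s⁻¹ * w * t⁻¹, h⟩ 1 else 0) α β
    rw [hαβ] at h3
    simp only [MonoidAlgebra.coeff_zero, Finsupp.sum_zero_index] at h3
    refine Eq.trans ?_ h3.symm
    simp only [a, b]
    rw [Finset.sum_mul_sum]
    refine Finset.sum_congr rfl fun g hg => Finset.sum_congr rfl fun k hk => ?_
    have hiff : s⁻¹ * (g * k) * t⁻¹ ∈ N ↔ f g = f s ∧ f k = f t := by
      constructor
      · intro h
        have h4 : f (s⁻¹ * (g * k) * t⁻¹) = 1 := (QuotientGroup.eq_one_iff _).2 h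
        rw [map_mul, map_mul, map_mul, map_inv, map_inv, mul_inv_eq_one, inv_mul_eq_iff_eq_mul] at h4
        exact huniq (Finset.mem_image_of_mem f hg) (Finset.mem_image_of_mem f hk) h4
      · rintro ⟨h1, h2⟩
        have : s⁻¹ * (g * k) * t⁻¹ = (s⁻¹ * g) * (k * t⁻¹) := by group
        rw [this]
        exact N.mul_mem (hmemα g h1) (hmemβ k h2)
    by_cases h1 : f g = f s
    · by_cases h2 : f k = f t
      · rw [dif_pos h1, dif_pos h2, dif_pos (hiff.2 ⟨h1, h2⟩), MonoidAlgebra.single_mul_single]
        have e : (⟨s⁻¹ * g, hmemα g h1⟩ * ⟨k * t⁻¹, hmemβ k h2⟩ : N)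
            = ⟨s⁻¹ * (g * k) * t⁻¹, hiff.2 ⟨h1, h2⟩⟩ := by
          apply Subtype.ext
          simp only [Subgroup.coe_mul]
          group
        rw [e]
        simp
      · rw [dif_neg h2, dif_neg (fun h => h2 (hiff.1 h).2)]
        simp
    · rw [dif_neg h1, dif_neg (fun h => h1 (hiff.1 h).1)]
      simp
  rcases hN.eq_zero_or_eq_zero_of_mul_eq_zero hab with h | h
  · exact ha h
  · exact hb h

end P201
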