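import Vale.Agent.P201.Step2
import Vale.Agent.P201.Chain
import Vale.Agent.P201.Closure

/-! P201: descending series with good factors. -/
namespace P201

/-- `N/M` is a good factor for `K`: either it is torsion-free and `G` acts on it by a sign
character, or `K` has characteristic zero and `N/M` embeds additively in `K`, semi-invariantly. -/
def GoodFactor (K : Type*) [Field K] {G : Type*} [Group G] (N M : Subgroup G) [N.Normal] : Prop :=
  (∃ χ : (G ⧸ N) →* ℤˣ,
    (∀ z ∈ N, ∀ g : G, g * z * g⁻¹ * (z ^ ((χ (g : G ⧸ N) : ℤˣ) : ℤ))⁻¹ ∈ M) ∧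
    (∀ z ∈ N, ∀ n : ℕ, 0 < n → z ^ n ∈ M → z ∈ M)) ∨
  (CharZero K ∧ ∃ (χ : (G ⧸ N) →* Kˣ) (lam : G → K),
    (∀ x ∈ N, ∀ y ∈ N, lam (x * y) = lam x + lam y) ∧
    (∀ x ∈ N, lam x = 0 ↔ x ∈ M) ∧
    (∀ z ∈ N, ∀ g : G, lam (g * z * g⁻¹) = (χ (g : G ⧸ N) : K) * lam z))

variable {K : Type*} [Field K] {G : Type*} [Group G]

theorem good_step {N M : Subgroup G} [N.Normal] [M.Normal] (hMN : M ≤ N) (h : GoodFactor K N M)
    (ih : NoZeroDivisors (MonoidAlgebra K (G ⧸ N))) : NoZeroDivisors (MonoidAlgebra K (G ⧸ M)) := by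
  classical
  have hle : M ≤ N.comap (MonoidHom.id G) := by rw [Subgroup.comap_id]; exact hMN
  let f : (G ⧸ M) →* (G ⧸ N) := QuotientGroup.map _ _ (MonoidHom.id G) hle
  have hfmk : ∀ g : G, f (g : G ⧸ M) = (g : G ⧸ N) := fun g => rfl
  have hsurj : Function.Surjective f := by
    intro q
    obtain ⟨g, rfl⟩ := QuotientGroup.mk_surjective q
    exact ⟨(g : G ⧸ M), rfl⟩
  have hker : ∀ z : G, (z : G ⧸ M) ∈ f.ker → z ∈ N := by
    intro z hz
    have := MonoidHom.mem_ker.1 hz
    rw [hfmk] at this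
    exact (QuotientGroup.eq_one_iff z).1 this
  rcases h with ⟨χ, hact, htf⟩ | ⟨hchar, χ, lam, hadd, hzero, hact⟩
  · refine step f hsurj χ ?_ ?_ ih
    · intro z hz g
      obtain ⟨z, rfl⟩ := QuotientGroup.mk_surjective z
      obtain ⟨g, rfl⟩ := QuotientGroup.mk_surjective g
      have h1 := hact z (hker z hz) g
      rw [hfmk]
      have h2 := (QuotientGroup.eq_one_iff _).2 h1
      rw [QuotientGroup.mk_mul, QuotientGroup.mk_inv, mul_inv_eq_one] at h2
      exact h2
    · intro z hz n hn hzn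
      obtain ⟨z, rfl⟩ := QuotientGroup.mk_surjective z
      have h1 : z ^ n ∈ M := (QuotientGroup.eq_one_iff _).1 hzn
      exact (QuotientGroup.eq_one_iff z).2 (htf z (hker z hz) n hn h1)
  · -- well definedness of `lam` modulo `M`
    have hwd : ∀ x ∈ N, ∀ y : G, (x : G ⧸ M) = (y : G ⧸ M) → lam x = lam y := by
      intro x hx y hxy
      have h1 : x⁻¹ * y ∈ M := QuotientGroup.eq.1 hxy
      have h2 : lam (x * (x⁻¹ * y)) = lam x + lam (x⁻¹ * y) := hadd x hx _ (hMN h1)
      rw [(hzero _ (hMN h1)).2 h1, add_zero, mul_inv_cancel_left] at h2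
      exact h2.symm
    let L : (G ⧸ M) → K := fun q => lam q.out
    have hL : ∀ z ∈ N, L (z : G ⧸ M) = lam z := by
      intro z hz
      exact (hwd z hz _ (QuotientGroup.out_eq' _).symm).symm
    refine step2 f hsurj L χ ?_ ?_ ?_ ih
    · intro x hx y hy
      obtain ⟨x, rfl⟩ := QuotientGroup.mk_surjective x
      obtain ⟨y, rfl⟩ := QuotientGroup.mk_surjective y
      have hx' := hker x hx
      have hy' := hker y hy
      have e1 : L ((x : G ⧸ M) * (y : G ⧸ M)) = lam (x * y) := hL (x * y) (N.mul_mem hx' hy')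
      have e2 : L (x : G ⧸ M) = lam x := hL x hx'
      have e3 : L (y : G ⧸ M) = lam y := hL y hy'
      rw [e1, e2, e3]
      exact hadd x hx' y hy'
    · intro x hx h0
      obtain ⟨x, rfl⟩ := QuotientGroup.mk_surjective x
      have hx' := hker x hx
      have e2 : L (x : G ⧸ M) = lam x := hL x hx'
      rw [e2] at h0
      exact (QuotientGroup.eq_one_iff x).2 ((hzero x hx').1 h0)
    · intro z hz g
      obtain ⟨z, rfl⟩ := QuotientGroup.mk_surjective z
      obtain ⟨g, rfl⟩ := QuotientGroup.mk_surjective g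
      have hz' := hker z hz
      have e1 : L ((g : G ⧸ M) * (z : G ⧸ M) * (g : G ⧸ M)⁻¹) = lam (g * z * g⁻¹) :=
        hL (g * z * g⁻¹) (Subgroup.Normal.conj_mem inferInstance z hz' g)
      have e2 : L (z : G ⧸ M) = lam z := hL z hz'
      rw [e1, e2, hfmk]
      exact hact z hz' g

theorem chain2 (N : ℕ → Subgroup G) [hN : ∀ i, (N i).Normal] (hanti : Antitone N)
    (hinf : ⨅ i, N i = ⊥) (hgood : ∀ i, GoodFactor K (N i) (N (i + 1)))
    (hQ : NoZeroDivisors (MonoidAlgebra K (G ⧸ N 0))) :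
    NoZeroDivisors (MonoidAlgebra K G) := by
  classical
  have hD : ∀ i, NoZeroDivisors (MonoidAlgebra K (G ⧸ N i)) := by
    intro i
    induction i with
    | zero => exact hQ
    | succ i ih => exact good_step (hanti (Nat.le_succ i)) (hgood i) ih
  refine resid fun S => ?_
  have hex : ∀ p : G × G, p.1 ≠ p.2 → ∃ i, p.1⁻¹ * p.2 ∉ N i := by
    intro p hp
    by_contra hcon
    push Not at hcon
    have h1 : p.1⁻¹ * p.2 ∈ ⨅ i, N i := Subgroup.mem_iInf.2 hcon
    rw [hinf, Subgroup.mem_bot, inv_mul_eq_one] at h1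
    exact hp h1
  let I : G × G → ℕ := fun p => if h : p.1 ≠ p.2 then (hex p h).choose else 0
  have hI : ∀ p : G × G, p.1 ≠ p.2 → p.1⁻¹ * p.2 ∉ N (I p) := by
    intro p hp
    simp only [I, dif_pos hp]
    exact (hex p hp).choose_spec
  let m := (S ×ˢ S).sup I
  refine ⟨N m, hN m, fun x hx y hy hxy => ?_, hD m⟩
  by_contra hne
  have h1 : I (x, y) ≤ m := Finset.le_sup (f := I) (Finset.mem_product.2 ⟨hx, hy⟩)
  exact hI (x, y) hne (hanti h1 (QuotientGroup.eq.1 hxy))

end P201
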