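import Mathlib

/-! P201: a homomorphism to `ℤ` injective on a finite set. -/
namespace P201

/-- finitely many nonzero integer vectors: a functional not vanishing on them. -/
theorem exists_functional {r : ℕ} (D : Finset (Fin r → ℤ)) (hD : ∀ d ∈ D, d ≠ 0) :
    ∃ M : ℤ, ∀ d ∈ D, ∑ i, d i * M ^ (i : ℕ) ≠ 0 := by
  classical
  let p : (Fin r → ℤ) → Polynomial ℤ := fun d => ∑ i, Polynomial.C (d i) * Polynomial.X ^ (i : ℕ)
  have hp : ∀ d ∈ D, p d ≠ 0 := by
    intro d hd h0
    apply hD d hd
    funext i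
    have h1 : (p d).coeff (i : ℕ) = d i := by
      simp only [p, Polynomial.finsetSum_coeff, Polynomial.coeff_C_mul, Polynomial.coeff_X_pow]
      rw [Finset.sum_eq_single i]
      · simp
      · intro j _ hne
        have : (i : ℕ) ≠ (j : ℕ) := fun h => hne (Fin.ext h.symm)
        simp [this]
      · intro h; exact absurd (Finset.mem_univ i) h
    rw [h0, Polynomial.coeff_zero] at h1
    simp [← h1]
  have hP : ∏ d ∈ D, p d ≠ 0 := Finset.prod_ne_zero_iff.2 hp
  obtain ⟨M, hM⟩ : ∃ M : ℤ, (∏ d ∈ D, p d).eval M ≠ 0 := by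
    by_contra hcon
    push Not at hcon
    apply hP
    apply Polynomial.funext
    intro x
    rw [hcon x, Polynomial.eval_zero]
  refine ⟨M, fun d hd => ?_⟩
  rw [Polynomial.eval_prod] at hM
  have := Finset.prod_ne_zero_iff.1 hM d hd
  simpa [p, Polynomial.eval_finsetSum] using this

theorem exists_addHom {A : Type*} [AddCommGroup A] [Module.Finite ℤ A] [Module.Free ℤ A]
    (S : Finset A) : ∃ π : A →+ ℤ, ∀ x ∈ S, ∀ y ∈ S, π x = π y → x = y := by
  classical
  let b := Module.finBasis ℤ A
  let D : Finset (Fin (Module.finrank ℤ A) → ℤ) :=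
    ((S ×ˢ S).image fun p => (fun i => b.repr (p.1 - p.2) i)).filter fun d => d ≠ 0
  obtain ⟨M, hM⟩ := exists_functional D (fun d hd => (Finset.mem_filter.1 hd).2)
  let π : A →ₗ[ℤ] ℤ := ∑ i : Fin (Module.finrank ℤ A), (M ^ (i : ℕ)) • (b.coord i)
  have hπ : ∀ x, π x = ∑ i, b.repr x i * M ^ (i : ℕ) := by
    intro x
    simp [π, LinearMap.sum_apply, mul_comm]
  refine ⟨π.toAddMonoidHom, fun x hx y hy hxy => ?_⟩
  by_contra hne
  have h1 : π (x - y) = 0 := by
    rw [map_sub]
    exact sub_eq_zero.2 hxy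
  rw [hπ] at h1
  refine hM (fun i => b.repr (x - y) i) ?_ h1
  refine Finset.mem_filter.2 ⟨Finset.mem_image.2 ⟨(x, y), Finset.mem_product.2 ⟨hx, hy⟩, rfl⟩, ?_⟩
  intro h0
  apply hne
  apply sub_eq_zero.1
  apply b.repr.injective
  rw [map_zero]
  ext i
  exact congrFun h0 i

/-- a homomorphism to `ℤ` on a finitely generated commutative torsion-free subgroup which is
injective on a finite set. -/
theorem exists_hom {G : Type*} [Group G] (F : Finset G)
    (hcomm : ∀ x ∈ F, ∀ y ∈ F, x * y = y * x)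
    (htf : ∀ x ∈ Subgroup.closure (F : Set G), ∀ n : ℕ, 0 < n → x ^ n = 1 → x = 1) :
    ∃ π : Subgroup.closure (F : Set G) →* Multiplicative ℤ,
      ∀ x y : Subgroup.closure (F : Set G), (x : G) ∈ F → (y : G) ∈ F → π x = π y → x = y := by
  classical
  have hc := Subgroup.isMulCommutative_closure (k := (F : Set G)) (fun x hx y hy => hcomm x hx y hy)
  let inst : CommGroup (Subgroup.closure (F : Set G)) :=
    { (inferInstance : Group (Subgroup.closure (F : Set G))) with
      mul_comm := fun a b => hc.is_comm.comm a b }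
  let A := Additive (Subgroup.closure (F : Set G))
  have htf' : Module.IsTorsionFree ℤ A := by
    rw [Module.isTorsionFree_int_iff_isAddTorsionFree]
    refine ⟨fun n hn x y hxy => ?_⟩
    have h1 : n • (x - y) = 0 := by
      rw [nsmul_sub]
      exact sub_eq_zero.2 hxy
    have h2 : (Additive.toMul (x - y)) ^ n = 1 := h1
    have h3 : ((Additive.toMul (x - y) : Subgroup.closure (F : Set G)) : G) ^ n = 1 := by
      have := congrArg (fun z : Subgroup.closure (F : Set G) => (z : G)) h2
      simpa using this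
    have h4 := htf _ (Additive.toMul (x - y) : Subgroup.closure (F : Set G)).2 n
      (Nat.pos_of_ne_zero hn) h3
    have h5 : (Additive.toMul (x - y) : Subgroup.closure (F : Set G)) = 1 := Subtype.ext h4
    have h6 : x - y = 0 := h5
    exact sub_eq_zero.1 h6
  have hfg : Group.FG (Subgroup.closure (F : Set G)) := Group.closure_finset_fg F
  have hfg' : AddGroup.FG A := by
    exact AddGroup.fg_iff_mul_fg.2 hfg
  have hfin : Module.Finite ℤ A := Module.Finite.iff_addGroup_fg.2 hfg'
  have hfree : Module.Free ℤ A := Module.free_of_finite_type_torsion_free'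
  let S : Finset A := F.attach.image fun x => Additive.ofMul ⟨x.1, Subgroup.subset_closure x.2⟩
  obtain ⟨π, hπ⟩ := exists_addHom S
  refine ⟨AddMonoidHom.toMultiplicativeRight π, fun x y hx hy hxy => ?_⟩
  have mx : Additive.ofMul x ∈ S := Finset.mem_image.2 ⟨⟨x.1, hx⟩, Finset.mem_attach _ _, rfl⟩
  have my : Additive.ofMul y ∈ S := Finset.mem_image.2 ⟨⟨y.1, hy⟩, Finset.mem_attach _ _, rfl⟩
  exact Additive.ofMul.injective (hπ _ mx _ my hxy)

end P201
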