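import Mathlib

/-! P201: power series facts. `U = 1 + X` as a unit of `K⟦X⟧`. -/
namespace P201
open PowerSeries

variable {K : Type*} [Field K]

theorem isUnit_one_add_X : IsUnit (1 + X : K⟦X⟧) := by
  rw [PowerSeries.isUnit_iff_constantCoeff]
  simp

/-- the unit `1 + X` -/
noncomputable def U (K : Type*) [Field K] : (K⟦X⟧)ˣ := (isUnit_one_add_X (K := K)).unit

theorem U_val : ((U K : (K⟦X⟧)ˣ) : K⟦X⟧) = 1 + X := IsUnit.unit_spec _

theorem constantCoeff_U_zpow (n : ℤ) : constantCoeff (((U K) ^ n : (K⟦X⟧)ˣ) : K⟦X⟧) = 1 := by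
  have h : Units.map (constantCoeff (R := K) : K⟦X⟧ →* K) (U K) = 1 := by
    ext
    simp [U_val]
  have h2 : Units.map (constantCoeff (R := K) : K⟦X⟧ →* K) ((U K) ^ n) = 1 := by
    rw [map_zpow, h, one_zpow]
  have := congrArg (fun u : Kˣ => (u : K)) h2
  rw [Units.coe_map, Units.val_one] at this
  exact this

/-- independence of distinct powers of `1+X` -/
theorem sum_U_ne_zero {ι : Type*} (s : Finset ι) (c : ι → K) (n : ι → ℤ)
    (hn : ∀ i ∈ s, ∀ j ∈ s, n i = n j → i = j) {i₀ : ι} (hi₀ : i₀ ∈ s) (hc : c i₀ ≠ 0) :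
    ∑ i ∈ s, C (c i) * (((U K) ^ (n i) : (K⟦X⟧)ˣ) : K⟦X⟧) ≠ 0 := by
  classical
  intro h0
  -- shift
  obtain ⟨m, hm⟩ : ∃ m : ℕ, ∀ i ∈ s, 0 ≤ n i + m := by
    refine ⟨∑ i ∈ s, (n i).natAbs, fun i hi => ?_⟩
    have h1 : (n i).natAbs ≤ ∑ i ∈ s, (n i).natAbs :=
      Finset.single_le_sum (f := fun i => (n i).natAbs) (fun _ _ => Nat.zero_le _) hi
    omega
  let N : ι → ℕ := fun i => (n i + m).toNat
  have hN : ∀ i ∈ s, ((N i : ℕ) : ℤ) = n i + m := fun i hi => Int.toNat_of_nonneg (hm i hi)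
  let p : Polynomial K := ∑ i ∈ s, Polynomial.C (c i) * Polynomial.X ^ (N i)
  have hp : p ≠ 0 := by
    intro hp0
    have h1 : p.coeff (N i₀) = c i₀ := by
      simp only [p, Polynomial.finsetSum_coeff, Polynomial.coeff_C_mul, Polynomial.coeff_X_pow]
      rw [Finset.sum_eq_single i₀]
      · simp
      · intro j hj hne
        have : N i₀ ≠ N j := by
          intro he
          apply hne
          apply hn j hj i₀ hi₀
          have e1 := hN j hj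
          have e2 := hN i₀ hi₀
          rw [he] at e2
          omega
        simp [this]
      · intro h; exact absurd hi₀ h
    rw [hp0, Polynomial.coeff_zero] at h1
    exact hc h1.symm
  have hq : p.comp (1 + Polynomial.X) ≠ 0 := by
    intro h
    have h2 : (p.comp (1 + Polynomial.X)).comp (Polynomial.X - 1) = 0 := by
      rw [h, Polynomial.zero_comp]
    rw [Polynomial.comp_assoc] at h2
    have h3 : ((1 + Polynomial.X : Polynomial K)).comp (Polynomial.X - 1) = Polynomial.X := by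
      simp
    rw [h3, Polynomial.comp_X] at h2
    exact hp h2
  apply hq
  apply Polynomial.coe_injective K
  rw [Polynomial.coe_zero]
  have e : ((p.comp (1 + Polynomial.X) : Polynomial K) : K⟦X⟧)
      = (((U K) ^ (m : ℤ) : (K⟦X⟧)ˣ) : K⟦X⟧) *
        ∑ i ∈ s, C (c i) * (((U K) ^ (n i) : (K⟦X⟧)ˣ) : K⟦X⟧) := by
    have e1 : p.comp (1 + Polynomial.X)
        = ∑ i ∈ s, Polynomial.C (c i) * (1 + Polynomial.X) ^ (N i) := by
      have e0 : ∀ r : Polynomial K, r.comp (1 + Polynomial.X)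
          = Polynomial.eval₂RingHom Polynomial.C (1 + Polynomial.X) r := fun r => rfl
      rw [e0]
      simp only [p]
      rw [map_sum]
      simp
    rw [e1, Finset.mul_sum]
    rw [← Polynomial.coeToPowerSeries.ringHom_apply, map_sum]
    refine Finset.sum_congr rfl fun i hi => ?_
    rw [map_mul, map_pow]
    have e2 : Polynomial.coeToPowerSeries.ringHom (1 + Polynomial.X : Polynomial K)
        = ((U K : (K⟦X⟧)ˣ) : K⟦X⟧) := by
      rw [U_val]; simp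
    have e3 : Polynomial.coeToPowerSeries.ringHom (Polynomial.C (c i)) = C (c i) := by simp
    rw [e2, e3]
    have e4 : (((U K) ^ (m : ℤ) : (K⟦X⟧)ˣ) : K⟦X⟧) * (((U K) ^ (n i) : (K⟦X⟧)ˣ) : K⟦X⟧)
        = ((U K : (K⟦X⟧)ˣ) : K⟦X⟧) ^ (N i) := by
      rw [← Units.val_mul, ← zpow_add, ← Units.val_pow_eq_pow_val, ← zpow_natCast, hN i hi,
        add_comm]
    rw [← e4]
    ring
  rw [e, h0, mul_zero]

/-- `U⁻¹ - 1` -/
theorem inv_sub_one : (((U K)⁻¹ : (K⟦X⟧)ˣ) : K⟦X⟧) - 1 = X * (-(((U K)⁻¹ : (K⟦X⟧)ˣ) : K⟦X⟧)) := by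
  have h : ((U K : (K⟦X⟧)ˣ) : K⟦X⟧) * (((U K)⁻¹ : (K⟦X⟧)ˣ) : K⟦X⟧) = 1 := Units.mul_inv _
  rw [U_val] at h
  linear_combination h

/-- the coefficient of lowest order under `U ↦ U⁻¹`. -/
theorem coeff_inv {ι : Type*} (s : Finset ι) (c : ι → K) (n : ι → ℤ) (l : ℕ)
    (h : ∀ j < l, coeff j (∑ i ∈ s, C (c i) * (((U K) ^ (n i) : (K⟦X⟧)ˣ) : K⟦X⟧)) = 0) :
    (∀ j < l, coeff j (∑ i ∈ s, C (c i) * (((U K) ^ (-n i) : (K⟦X⟧)ˣ) : K⟦X⟧)) = 0) ∧
    coeff l (∑ i ∈ s, C (c i) * (((U K) ^ (-n i) : (K⟦X⟧)ˣ) : K⟦X⟧))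
      = (-1) ^ l * coeff l (∑ i ∈ s, C (c i) * (((U K) ^ (n i) : (K⟦X⟧)ˣ) : K⟦X⟧)) := by
  classical
  set a : K⟦X⟧ := (((U K)⁻¹ : (K⟦X⟧)ˣ) : K⟦X⟧) - 1 with ha
  have ha0 : constantCoeff a = 0 := by
    rw [ha, inv_sub_one]; simp
  have hs : HasSubst a := HasSubst.of_constantCoeff_zero' ha0
  let σ : K⟦X⟧ →ₐ[K] K⟦X⟧ := substAlgHom hs
  have hX : σ X = a := substAlgHom_X hs
  have hC : ∀ r : K, σ (C r) = C r := fun r => by
    have := σ.commutes r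
    simpa [PowerSeries.algebraMap_apply] using this
  have hU : Units.map (σ : K⟦X⟧ →* K⟦X⟧) (U K) = (U K)⁻¹ := by
    ext1
    simp only [Units.coe_map]
    have : σ ((U K : (K⟦X⟧)ˣ) : K⟦X⟧) = 1 + a := by
      rw [U_val, map_add, map_one, hX]
    calc σ ((U K : (K⟦X⟧)ˣ) : K⟦X⟧) = 1 + a := this
      _ = (((U K)⁻¹ : (K⟦X⟧)ˣ) : K⟦X⟧) := by rw [ha]; ring
  have hUz : ∀ k : ℤ, σ ((((U K) ^ k : (K⟦X⟧)ˣ)) : K⟦X⟧) = (((U K) ^ (-k) : (K⟦X⟧)ˣ) : K⟦X⟧) := by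
    intro k
    have h1 : Units.map (σ : K⟦X⟧ →* K⟦X⟧) ((U K) ^ k) = (U K) ^ (-k) := by
      rw [map_zpow, hU, inv_zpow, zpow_neg]
    have := congrArg (fun u : (K⟦X⟧)ˣ => (u : K⟦X⟧)) h1
    rw [Units.coe_map] at this
    exact this
  set P : K⟦X⟧ := ∑ i ∈ s, C (c i) * (((U K) ^ (n i) : (K⟦X⟧)ˣ) : K⟦X⟧) with hP
  have hσP : σ P = ∑ i ∈ s, C (c i) * (((U K) ^ (-n i) : (K⟦X⟧)ˣ) : K⟦X⟧) := by
    rw [hP, map_sum]
    refine Finset.sum_congr rfl fun i _ => ?_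
    rw [map_mul, hC, hUz]
  obtain ⟨R, hR⟩ : X ^ l ∣ P := X_pow_dvd_iff.2 h
  have hconst : ∀ R : K⟦X⟧, constantCoeff (σ R) = constantCoeff R := by
    intro R
    have e : R = X * (PowerSeries.mk fun p => coeff (p + 1) R) + C (constantCoeff R) := by
      exact PowerSeries.eq_X_mul_shift_add_const R
    rw [e, map_add, map_mul, hX, hC]
    simp [ha0]
  have e1 : σ P = X ^ l * ((-(((U K)⁻¹ : (K⟦X⟧)ˣ) : K⟦X⟧)) ^ l * σ R) := by
    rw [hR, map_mul, map_pow, hX, ha, inv_sub_one, mul_pow, mul_assoc]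
  rw [← hσP]
  constructor
  · intro j hj
    rw [e1, coeff_X_pow_mul', if_neg (by omega)]
  · rw [e1, coeff_X_pow_mul', if_pos le_rfl, hR, coeff_X_pow_mul', if_pos le_rfl]
    simp only [Nat.sub_self, coeff_zero_eq_constantCoeff]
    rw [map_mul, map_pow, map_neg, hconst]
    have : constantCoeff (((U K)⁻¹ : (K⟦X⟧)ˣ) : K⟦X⟧) = 1 := by
      have := constantCoeff_U_zpow (K := K) (-1)
      simpa using this
    rw [this]

end P201
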