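import Vale.Agent.P201.PS
import Vale.Agent.P201.Hom

/-! P201: the one-step theorem. -/
namespace P201
open PowerSeries

variable {K : Type*} [Field K] {G Q : Type*} [Group G] [Group Q]

/-- value of a weight function on a product -/
theorem sum_mul {V : Type*} [AddCommMonoid V] [Module K V] (W : G → V) (α β : MonoidAlgebra K G) :
    (α * β).coeff.sum (fun w a => a • W w)
      = ∑ g ∈ α.coeff.support, ∑ h ∈ β.coeff.support, (α.coeff g * β.coeff h) • W (g * h) := by
  classical
  let L : MonoidAlgebra K G →+ V :=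
    { toFun := fun x => x.coeff.sum (fun w a => a • W w)
      map_zero' := by simp
      map_add' := fun x y => by
        rw [MonoidAlgebra.coeff_add, Finsupp.sum_add_index']
        · intro; simp
        · intro a b c; exact add_smul b c _ }
  have hL : ∀ w a, L (MonoidAlgebra.single w a) = a • W w := by
    intro w a
    change (MonoidAlgebra.single w a).coeff.sum (fun w a => a • W w) = _
    rw [MonoidAlgebra.coeff_single, Finsupp.sum_single_index (by simp)]
  change L (α * β) = _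
  rw [MonoidAlgebra.mul_def, Finsupp.sum, map_sum]
  refine Finset.sum_congr rfl fun g _ => ?_
  rw [Finsupp.sum, map_sum]
  refine Finset.sum_congr rfl fun h _ => ?_
  rw [hL]

theorem ker_comm (f : G →* Q) (ε : Q →* ℤˣ)
    (hact : ∀ z ∈ f.ker, ∀ g : G, g * z * g⁻¹ = z ^ ((ε (f g) : ℤˣ) : ℤ))
    {x y : G} (hx : x ∈ f.ker) (hy : y ∈ f.ker) : x * y = y * x := by
  have h := hact y hy x
  rw [MonoidHom.mem_ker.1 hx, map_one, Units.val_one, zpow_one] at h
  calc x * y = x * y * x⁻¹ * x := by group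
    _ = y * x := by rw [h]

/-- leading coefficients in a finite family of power series -/
theorem exists_order {ι : Type*} (P : ι → K⟦X⟧) {i₀ : ι} (h : P i₀ ≠ 0) :
    ∃ k : ℕ, (∀ i, ∀ j < k, coeff j (P i) = 0) ∧ ∃ i, coeff k (P i) ≠ 0 := by
  classical
  have hex : ∃ k : ℕ, ∃ i, coeff k (P i) ≠ 0 := by
    by_contra hcon
    push Not at hcon
    exact h (PowerSeries.ext fun n => by rw [hcon n i₀]; simp)
  refine ⟨Nat.find hex, fun i j hj => ?_, Nat.find_spec hex⟩
  by_contra hne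
  exact Nat.find_min hex hj ⟨i, hne⟩

/-- lowest coefficient of a product -/
theorem coeff_mul_lowest {A B : K⟦X⟧} {k l : ℕ} (hA : ∀ j < k, coeff j A = 0)
    (hB : ∀ j < l, coeff j B = 0) (T : K⟦X⟧) (hT : constantCoeff T = 1) :
    coeff (k + l) (A * B * T) = coeff k A * coeff l B := by
  obtain ⟨A', hA'⟩ : X ^ k ∣ A := X_pow_dvd_iff.2 hA
  obtain ⟨B', hB'⟩ : X ^ l ∣ B := X_pow_dvd_iff.2 hB
  have e : A * B * T = X ^ (k + l) * (A' * B' * T) := by
    rw [hA', hB', pow_add]; ring
  rw [e, hA', hB']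
  simp only [coeff_X_pow_mul', le_refl, if_true, Nat.sub_self, coeff_zero_eq_constantCoeff,
    map_mul, hT, mul_one]

theorem step (f : G →* Q) (hf : Function.Surjective f) (ε : Q →* ℤˣ)
    (hact : ∀ z ∈ f.ker, ∀ g : G, g * z * g⁻¹ = z ^ ((ε (f g) : ℤˣ) : ℤ))
    (htf : ∀ z ∈ f.ker, ∀ n : ℕ, 0 < n → z ^ n = 1 → z = 1)
    (hQ : NoZeroDivisors (MonoidAlgebra K Q)) : NoZeroDivisors (MonoidAlgebra K G) := by
  classical
  refine ⟨fun {α β} hαβ => ?_⟩
  by_contra hcon
  push Not at hcon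
  obtain ⟨hα, hβ⟩ := hcon
  -- section
  let s : Q → G := Function.surjInv hf
  have hs : ∀ q, f (s q) = q := Function.surjInv_eq hf
  let ζ : G → G := fun w => w * (s (f w))⁻¹
  have hζ : ∀ w, ζ w ∈ f.ker := fun w => by
    rw [MonoidHom.mem_ker, map_mul, map_inv, hs, mul_inv_cancel]
  let c : Q → Q → G := fun q r => s q * s r * (s (q * r))⁻¹
  have hc : ∀ q r, c q r ∈ f.ker := fun q r => by
    rw [MonoidHom.mem_ker, map_mul, map_mul, map_inv, hs, hs, hs, mul_inv_cancel]
  have hζmul : ∀ g h, ζ (g * h) = ζ g * (ζ h) ^ ((ε (f g) : ℤˣ) : ℤ) * c (f g) (f h) := by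
    intro g h
    have h1 := hact (ζ h) (hζ h) (s (f g))
    rw [hs] at h1
    rw [← h1]
    simp only [ζ, c, map_mul]
    group
  let F : Finset G := α.coeff.support.image ζ ∪ β.coeff.support.image ζ ∪
    (α.coeff.support ×ˢ β.coeff.support).image (fun p => c (f p.1) (f p.2))
  have hFker : ∀ x ∈ F, x ∈ f.ker := by
    intro x hx
    simp only [F, Finset.mem_union, Finset.mem_image] at hx
    rcases hx with (⟨g, _, rfl⟩ | ⟨g, _, rfl⟩) | ⟨p, _, rfl⟩
    · exact hζ g
    · exact hζ g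
    · exact hc _ _
  have hcl : Subgroup.closure (F : Set G) ≤ f.ker := (Subgroup.closure_le _).2 hFker
  obtain ⟨π, hπ⟩ := exists_hom F
    (fun x hx y hy => ker_comm f ε hact (hFker x hx) (hFker y hy))
    (fun x hx n hn h => htf x (hcl hx) n hn h)
  -- exponent function
  let e : G → ℤ := fun w => if h : w ∈ Subgroup.closure (F : Set G) then
    Multiplicative.toAdd (π ⟨w, h⟩) else 0
  have he : ∀ w (h : w ∈ Subgroup.closure (F : Set G)), e w = Multiplicative.toAdd (π ⟨w, h⟩) :=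
    fun w h => dif_pos h
  have he_mul : ∀ x y, x ∈ Subgroup.closure (F : Set G) → y ∈ Subgroup.closure (F : Set G) →
      e (x * y) = e x + e y := by
    intro x y hx hy
    rw [he _ (Subgroup.mul_mem _ hx hy), he _ hx, he _ hy, ← toAdd_mul, ← map_mul]
    rfl
  have he_zpow : ∀ x (k : ℤ), x ∈ Subgroup.closure (F : Set G) → e (x ^ k) = k * e x := by
    intro x k hx
    rw [he _ (Subgroup.zpow_mem _ hx k), he _ hx]
    have : (⟨x ^ k, Subgroup.zpow_mem _ hx k⟩ : Subgroup.closure (F : Set G)) = ⟨x, hx⟩ ^ k := rfl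
    rw [this, map_zpow, toAdd_zpow]
    simp
  have hmemα : ∀ g ∈ α.coeff.support, ζ g ∈ F := fun g hg => by
    simp only [F, Finset.mem_union, Finset.mem_image]
    exact Or.inl (Or.inl ⟨g, hg, rfl⟩)
  have hmemβ : ∀ g ∈ β.coeff.support, ζ g ∈ F := fun g hg => by
    simp only [F, Finset.mem_union, Finset.mem_image]
    exact Or.inl (Or.inr ⟨g, hg, rfl⟩)
  have hmemc : ∀ g ∈ α.coeff.support, ∀ h ∈ β.coeff.support, c (f g) (f h) ∈ F :=
    fun g hg h hh => by
      simp only [F, Finset.mem_union, Finset.mem_image]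
      exact Or.inr ⟨(g, h), Finset.mem_product.2 ⟨hg, hh⟩, rfl⟩
  have hsub : ∀ x ∈ F, x ∈ Subgroup.closure (F : Set G) := fun x hx => Subgroup.subset_closure hx
  -- the series
  let u : ℤ → K⟦X⟧ := fun n => (((U K) ^ n : (K⟦X⟧)ˣ) : K⟦X⟧)
  have hu : ∀ a b, u (a + b) = u a * u b := fun a b => by
    simp only [u]; rw [zpow_add, Units.val_mul]
  let Pα : Q → K⟦X⟧ := fun q => ∑ g ∈ α.coeff.support with f g = q, C (α.coeff g) * u (e (ζ g))
  let Pβ : Q → K⟦X⟧ := fun q => ∑ g ∈ β.coeff.support with f g = q, C (β.coeff g) * u (e (ζ g))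
  let Pm : Q → ℤ → K⟦X⟧ := fun q t =>
    ∑ g ∈ β.coeff.support with f g = q, C (β.coeff g) * u (t * e (ζ g))
  have hne : ∀ γ : MonoidAlgebra K G, γ ≠ 0 → (∀ g ∈ γ.coeff.support, ζ g ∈ F) →
      ∃ q, (∑ g ∈ γ.coeff.support with f g = q, C (γ.coeff g) * u (e (ζ g))) ≠ 0 := by
    intro γ hγ hmem
    have hsupp : γ.coeff.support.Nonempty := by
      rw [Finsupp.support_nonempty_iff]
      intro h0
      exact hγ (MonoidAlgebra.coeff_eq_zero.1 h0)
    obtain ⟨g₀, hg₀⟩ := hsupp
    refine ⟨f g₀, ?_⟩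
    refine sum_U_ne_zero _ (fun g => γ.coeff g) (fun g => e (ζ g)) ?_
      (i₀ := g₀) (Finset.mem_filter.2 ⟨hg₀, rfl⟩) (Finsupp.mem_support_iff.1 hg₀)
    intro g hg h hh hgh
    obtain ⟨hg1, hg2⟩ := Finset.mem_filter.1 hg
    obtain ⟨hh1, hh2⟩ := Finset.mem_filter.1 hh
    rw [he _ (hsub _ (hmem g hg1)), he _ (hsub _ (hmem h hh1))] at hgh
    have h1 := hπ ⟨ζ g, hsub _ (hmem g hg1)⟩ ⟨ζ h, hsub _ (hmem h hh1)⟩ (hmem g hg1) (hmem h hh1)
      (Multiplicative.toAdd.injective hgh)
    have h2 : ζ g = ζ h := congrArg Subtype.val h1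
    simp only [ζ] at h2
    rw [hg2, hh2] at h2
    exact mul_right_cancel h2
  obtain ⟨q₀, hq₀⟩ := hne α hα hmemα
  obtain ⟨r₀, hr₀⟩ := hne β hβ hmemβ
  obtain ⟨k, hk, q₁, hq₁⟩ := exists_order Pα hq₀
  obtain ⟨l, hl, r₁, hr₁⟩ := exists_order Pβ hr₀
  -- lowest coefficients of `Pm`
  have hPm : ∀ (w : ℤˣ) (r : Q), (∀ j < l, coeff j (Pm r (w : ℤ)) = 0) ∧
      coeff l (Pm r (w : ℤ)) = ((w : ℤ) : K) ^ l * coeff l (Pβ r) := by
    intro w r
    rcases Int.units_eq_one_or w with rfl | rfl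
    · have : Pm r ((1 : ℤˣ) : ℤ) = Pβ r := by simp [Pm, Pβ]
      rw [this]
      exact ⟨hl r, by simp⟩
    · have h1 := coeff_inv (K := K) (β.coeff.support.filter fun g => f g = r)
        (fun g => β.coeff g) (fun g => e (ζ g)) l (hl r)
      have h2 : Pm r (((-1 : ℤˣ)) : ℤ) = ∑ g ∈ β.coeff.support with f g = r,
          C (β.coeff g) * u (-e (ζ g)) := by
        simp only [Pm]
        refine Finset.sum_congr rfl fun g _ => ?_
        simp
      rw [h2]
      refine ⟨h1.1, h1.2.trans ?_⟩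
      simp [Pβ, u]
  -- the main identity
  have hmain : ∀ t : Q, ∑ q ∈ α.coeff.support.image f, ∑ r ∈ β.coeff.support.image f,
      (if q * r = t then coeff k (Pα q) * (((ε q : ℤˣ) : ℤ) : K) ^ l * coeff l (Pβ r) else 0)
        = 0 := by
    intro t
    have h0 := sum_mul (K := K) (fun w => if f w = t then u (e (ζ w)) else 0) α β
    rw [hαβ] at h0
    simp only [MonoidAlgebra.coeff_zero, Finsupp.sum_zero_index] at h0
    have h1 : ∑ g ∈ α.coeff.support, ∑ h ∈ β.coeff.support,
        (α.coeff g * β.coeff h) • (if f (g * h) = t then u (e (ζ (g * h))) else 0)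
        = ∑ q ∈ α.coeff.support.image f, ∑ r ∈ β.coeff.support.image f,
          (if q * r = t then Pα q * Pm r ((ε q : ℤˣ) : ℤ) * u (e (c q r)) else 0) := by
      rw [← Finset.sum_fiberwise_of_maps_to
        (fun g hg => Finset.mem_image_of_mem f hg : ∀ g ∈ α.coeff.support, f g ∈ _)]
      refine Finset.sum_congr rfl fun q _ => ?_
      rw [Finset.sum_comm]
      rw [← Finset.sum_fiberwise_of_maps_to
        (fun h hh => Finset.mem_image_of_mem f hh : ∀ h ∈ β.coeff.support, f h ∈ _)]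
      refine Finset.sum_congr rfl fun r _ => ?_
      split_ifs with hqr
      · simp only [Pα, Pm]
        rw [mul_assoc, Finset.sum_mul, Finset.sum_comm]
        refine Finset.sum_congr rfl fun g hg => ?_
        rw [Finset.sum_mul, Finset.mul_sum]
        refine Finset.sum_congr rfl fun h hh => ?_
        obtain ⟨hg1, hg2⟩ := Finset.mem_filter.1 hg
        obtain ⟨hh1, hh2⟩ := Finset.mem_filter.1 hh
        rw [map_mul, hg2, hh2, if_pos hqr, hζmul, hg2, hh2]
        have m1 := hsub _ (hmemα g hg1)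
        have m2 := hsub _ (hmemβ h hh1)
        have m3 := hsub _ (hmemc g hg1 h hh1)
        rw [hg2, hh2] at m3
        rw [he_mul _ _ (Subgroup.mul_mem _ m1 (Subgroup.zpow_mem _ m2 _)) m3,
          he_mul _ _ m1 (Subgroup.zpow_mem _ m2 _), he_zpow _ _ m2, hu, hu,
          PowerSeries.smul_eq_C_mul, map_mul]
        ring
      · refine Finset.sum_eq_zero fun h hh => Finset.sum_eq_zero fun g hg => ?_
        obtain ⟨hg1, hg2⟩ := Finset.mem_filter.1 hg
        obtain ⟨hh1, hh2⟩ := Finset.mem_filter.1 hh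
        rw [map_mul, hg2, hh2, if_neg hqr, smul_zero]
    have h2 := congrArg (coeff (k + l)) (h0.trans h1)
    rw [map_zero, map_sum] at h2
    refine Eq.trans ?_ h2.symm
    refine Finset.sum_congr rfl fun q _ => ?_
    refine Eq.trans ?_ (map_sum (coeff (k + l)) _ _).symm
    refine Finset.sum_congr rfl fun r _ => ?_
    split_ifs with hqr
    · rw [coeff_mul_lowest (hk q) (hPm (ε q) r).1 _ (constantCoeff_U_zpow _), (hPm (ε q) r).2]
      ring
    · simp
  -- the product in `K[Q]`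
  let a : MonoidAlgebra K Q := ∑ q ∈ α.coeff.support.image f,
    MonoidAlgebra.single q (coeff k (Pα q) * (((ε q : ℤˣ) : ℤ) : K) ^ l)
  let b : MonoidAlgebra K Q := ∑ r ∈ β.coeff.support.image f,
    MonoidAlgebra.single r (coeff l (Pβ r))
  have hcoef : ∀ (S : Finset Q) (x : Q → K) (t : Q),
      (∑ q ∈ S, MonoidAlgebra.single q (x q) : MonoidAlgebra K Q).coeff t
        = if t ∈ S then x t else 0 := by
    intro S x t
    rw [MonoidAlgebra.coeff_sum, Finsupp.finsetSum_apply]
    simp only [MonoidAlgebra.coeff_single, Finsupp.single_apply]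
    rw [Finset.sum_ite_eq']
  have hab : a * b = 0 := by
    refine MonoidAlgebra.coeff_injective (Finsupp.ext fun t => ?_)
    rw [Finset.sum_mul_sum, MonoidAlgebra.coeff_sum, Finsupp.finsetSum_apply,
      MonoidAlgebra.coeff_zero, Finsupp.zero_apply]
    refine Eq.trans ?_ (hmain t)
    refine Finset.sum_congr rfl fun q _ => ?_
    rw [MonoidAlgebra.coeff_sum, Finsupp.finsetSum_apply]
    refine Finset.sum_congr rfl fun r _ => ?_
    rw [MonoidAlgebra.single_mul_single, MonoidAlgebra.coeff_single, Finsupp.single_apply]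
  have hzero : ∀ (γ : MonoidAlgebra K G) (q : Q), q ∉ γ.coeff.support.image f →
      (∑ g ∈ γ.coeff.support with f g = q, C (γ.coeff g) * u (e (ζ g))) = 0 := by
    intro γ q hq
    rw [Finset.filter_eq_empty_iff.2, Finset.sum_empty]
    intro g hg hgq
    exact hq (Finset.mem_image.2 ⟨g, hg, hgq⟩)
  have ha : a ≠ 0 := by
    intro h0
    have h1 := hcoef (α.coeff.support.image f)
      (fun q => coeff k (Pα q) * (((ε q : ℤˣ) : ℤ) : K) ^ l) q₁
    change a.coeff q₁ = _ at h1
    rw [h0, MonoidAlgebra.coeff_zero, Finsupp.zero_apply, if_pos] at h1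
    · have h2 := mul_eq_zero.1 h1.symm
      rcases h2 with h2 | h2
      · exact hq₁ h2
      · rcases Int.units_eq_one_or (ε q₁) with h4 | h4 <;> rw [h4] at h2 <;> simp at h2
    · by_contra hq
      exact hq₁ (by simp only [Pα]; rw [hzero α q₁ hq, map_zero])
  have hb : b ≠ 0 := by
    intro h0
    have h1 := hcoef (β.coeff.support.image f) (fun r => coeff l (Pβ r)) r₁
    change b.coeff r₁ = _ at h1
    rw [h0, MonoidAlgebra.coeff_zero, Finsupp.zero_apply, if_pos] at h1
    · exact hr₁ h1.symm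
    · by_contra hq
      exact hr₁ (by simp only [Pβ]; rw [hzero β r₁ hq, map_zero])
  rcases hQ.eq_zero_or_eq_zero_of_mul_eq_zero hab with h | h
  · exact ha h
  · exact hb h

end P201
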