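import Vale.Agent.P201.Step

/-! P201: the one-step theorem in characteristic zero, semi-invariant version. -/
namespace P201
open PowerSeries

variable {K : Type*} [Field K] [CharZero K] {G Q : Type*} [Group G] [Group Q]

/-- `exp (a X)` -/
noncomputable def ex (a : K) : K⟦X⟧ := rescale a (exp K)

theorem coeff_ex (a : K) (m : ℕ) : coeff m (ex a) = a ^ m * ((m.factorial : K))⁻¹ := by
  unfold ex
  rw [coeff_rescale, coeff_exp]
  simp

theorem ex_add (a b : K) : ex (a + b) = ex a * ex b := by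
  unfold ex
  exact (exp_mul_exp_eq_exp_add a b).symm

theorem const_ex (a : K) : constantCoeff (ex a) = 1 := by
  rw [← coeff_zero_eq_constantCoeff_apply, coeff_ex]
  simp

theorem sum_ex_ne_zero {ι : Type*} (s : Finset ι) (c : ι → K) (n : ι → K)
    (hn : ∀ i ∈ s, ∀ j ∈ s, n i = n j → i = j) {i₀ : ι} (hi₀ : i₀ ∈ s) (hc : c i₀ ≠ 0) :
    ∑ i ∈ s, C (c i) * ex (n i) ≠ 0 := by
  classical
  intro h0
  have h1 : ∀ m : ℕ, ∑ i ∈ s, c i * n i ^ m = 0 := by
    intro m
    have h2 := congrArg (coeff m) h0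
    rw [map_sum, map_zero] at h2
    have h3 : ∑ i ∈ s, coeff m (C (c i) * ex (n i))
        = (∑ i ∈ s, c i * n i ^ m) * ((m.factorial : K))⁻¹ := by
      rw [Finset.sum_mul]
      refine Finset.sum_congr rfl fun i _ => ?_
      rw [coeff_C_mul, coeff_ex]
      ring
    rw [h3] at h2
    rcases mul_eq_zero.1 h2 with h4 | h4
    · exact h4
    · exact absurd h4 (inv_ne_zero (by exact_mod_cast m.factorial_ne_zero))
  let p : Polynomial K := ∏ j ∈ s.erase i₀, (Polynomial.X - Polynomial.C (n j))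
  have h2 : ∑ i ∈ s, c i * p.eval (n i) = 0 := by
    have : ∀ x, p.eval x = ∑ m ∈ Finset.range (p.natDegree + 1), p.coeff m * x ^ m :=
      fun x => Polynomial.eval_eq_sum_range x
    simp only [this, Finset.mul_sum]
    rw [Finset.sum_comm]
    refine Finset.sum_eq_zero fun m _ => ?_
    have h3 := h1 m
    calc ∑ i ∈ s, c i * (p.coeff m * n i ^ m) = p.coeff m * ∑ i ∈ s, c i * n i ^ m := by
          rw [Finset.mul_sum]
          refine Finset.sum_congr rfl fun i _ => ?_
          ring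
      _ = 0 := by rw [h3, mul_zero]
  rw [Finset.sum_eq_single i₀] at h2
  · rcases mul_eq_zero.1 h2 with h3 | h3
    · exact hc h3
    · rw [Polynomial.eval_prod] at h3
      obtain ⟨j, hj, hj0⟩ := Finset.prod_eq_zero_iff.1 h3
      simp only [Polynomial.eval_sub, Polynomial.eval_X, Polynomial.eval_C, sub_eq_zero] at hj0
      exact (Finset.mem_erase.1 hj).1 (hn i₀ hi₀ j (Finset.mem_erase.1 hj).2 hj0).symm
  · intro i hi hne
    have : p.eval (n i) = 0 := by
      rw [Polynomial.eval_prod]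
      refine Finset.prod_eq_zero (Finset.mem_erase.2 ⟨hne, hi⟩) ?_
      simp
    rw [this, mul_zero]
  · intro h; exact absurd hi₀ h

theorem step2 (f : G →* Q) (hf : Function.Surjective f) (lam : G → K) (χ : Q →* Kˣ)
    (hlam : ∀ x ∈ f.ker, ∀ y ∈ f.ker, lam (x * y) = lam x + lam y)
    (hinj : ∀ x ∈ f.ker, lam x = 0 → x = 1)
    (hact : ∀ z ∈ f.ker, ∀ g : G, lam (g * z * g⁻¹) = (χ (f g) : K) * lam z)
    (hQ : NoZeroDivisors (MonoidAlgebra K Q)) : NoZeroDivisors (MonoidAlgebra K G) := by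
  classical
  refine ⟨fun {α β} hαβ => ?_⟩
  by_contra hcon
  push Not at hcon
  obtain ⟨hα, hβ⟩ := hcon
  -- section
  let s : Q → G := Function.surjInv hf
  have hs : ∀ q, f (s q) = q := Function.surjInv_eq hf
  let ζ : G → G := fun w => w * (s (f w))⁻¹
  have hζ : ∀ w, ζ w ∈ f.ker := fun w => by
    rw [MonoidHom.mem_ker, map_mul, map_inv, hs, mul_inv_cancel]
  let c : Q → Q → G := fun q r => s q * s r * (s (q * r))⁻¹
  have hc : ∀ q r, c q r ∈ f.ker := fun q r => by
    rw [MonoidHom.mem_ker, map_mul, map_mul, map_inv, hs, hs, hs, mul_inv_cancel]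
  have hζmul : ∀ g h, lam (ζ (g * h))
      = lam (ζ g) + (χ (f g) : K) * lam (ζ h) + lam (c (f g) (f h)) := by
    intro g h
    have h1 := hact (ζ h) (hζ h) (s (f g))
    rw [hs] at h1
    have h2 : ζ (g * h) = ζ g * (s (f g) * ζ h * (s (f g))⁻¹) * c (f g) (f h) := by
      simp only [ζ, c, map_mul]
      group
    have hk : s (f g) * ζ h * (s (f g))⁻¹ ∈ f.ker := f.normal_ker.conj_mem _ (hζ h) _
    rw [h2, hlam _ (f.ker.mul_mem (hζ g) hk) _ (hc _ _), hlam _ (hζ g) _ hk, h1]
  have hlam1 : lam 1 = 0 := by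
    have := hlam 1 f.ker.one_mem 1 f.ker.one_mem
    rw [mul_one] at this
    linear_combination -this
  have hlaminv : ∀ x ∈ f.ker, lam x⁻¹ = -lam x := fun x hx => by
    have := hlam x hx x⁻¹ (f.ker.inv_mem hx)
    rw [mul_inv_cancel, hlam1] at this
    linear_combination -this
  have hlaminj : ∀ x ∈ f.ker, ∀ y ∈ f.ker, lam x = lam y → x = y := by
    intro x hx y hy hxy
    have h1 := hinj (x * y⁻¹) (f.ker.mul_mem hx (f.ker.inv_mem hy)) (by
      rw [hlam _ hx _ (f.ker.inv_mem hy), hlaminv _ hy, hxy]; ring)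
    exact mul_inv_eq_one.1 h1
  -- the series
  let Pα : Q → K⟦X⟧ := fun q => ∑ g ∈ α.coeff.support with f g = q, C (α.coeff g) * ex (lam (ζ g))
  let Pβ : Q → K⟦X⟧ := fun q => ∑ g ∈ β.coeff.support with f g = q, C (β.coeff g) * ex (lam (ζ g))
  let Pm : Q → K → K⟦X⟧ := fun q t =>
    ∑ g ∈ β.coeff.support with f g = q, C (β.coeff g) * ex (t * lam (ζ g))
  have hne : ∀ γ : MonoidAlgebra K G, γ ≠ 0 →
      ∃ q, (∑ g ∈ γ.coeff.support with f g = q, C (γ.coeff g) * ex (lam (ζ g))) ≠ 0 := by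
    intro γ hγ
    have hsupp : γ.coeff.support.Nonempty := by
      rw [Finsupp.support_nonempty_iff]
      intro h0
      exact hγ (MonoidAlgebra.coeff_eq_zero.1 h0)
    obtain ⟨g₀, hg₀⟩ := hsupp
    refine ⟨f g₀, ?_⟩
    refine sum_ex_ne_zero _ (fun g => γ.coeff g) (fun g => lam (ζ g)) ?_
      (i₀ := g₀) (Finset.mem_filter.2 ⟨hg₀, rfl⟩) (Finsupp.mem_support_iff.1 hg₀)
    intro g hg h hh hgh
    obtain ⟨hg1, hg2⟩ := Finset.mem_filter.1 hg
    obtain ⟨hh1, hh2⟩ := Finset.mem_filter.1 hh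
    have h2 : ζ g = ζ h := hlaminj _ (hζ g) _ (hζ h) hgh
    simp only [ζ] at h2
    rw [hg2, hh2] at h2
    exact mul_right_cancel h2
  obtain ⟨q₀, hq₀⟩ := hne α hα
  obtain ⟨r₀, hr₀⟩ := hne β hβ
  obtain ⟨k, hk, q₁, hq₁⟩ := exists_order Pα hq₀
  obtain ⟨l, hl, r₁, hr₁⟩ := exists_order Pβ hr₀
  -- lowest coefficients of `Pm`
  have hPmc : ∀ (t : K) (r : Q) (j : ℕ), coeff j (Pm r t) = t ^ j * coeff j (Pβ r) := by
    intro t r j
    simp only [Pm, Pβ, map_sum, Finset.mul_sum]
    refine Finset.sum_congr rfl fun g _ => ?_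
    rw [coeff_C_mul, coeff_C_mul, coeff_ex, coeff_ex]
    ring
  -- the main identity
  have hmain : ∀ t : Q, ∑ q ∈ α.coeff.support.image f, ∑ r ∈ β.coeff.support.image f,
      (if q * r = t then coeff k (Pα q) * (χ q : K) ^ l * coeff l (Pβ r) else 0)
        = 0 := by
    intro t
    have h0 := sum_mul (K := K) (fun w => if f w = t then ex (lam (ζ w)) else 0) α β
    rw [hαβ] at h0
    simp only [MonoidAlgebra.coeff_zero, Finsupp.sum_zero_index] at h0
    have h1 : ∑ g ∈ α.coeff.support, ∑ h ∈ β.coeff.support,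
        (α.coeff g * β.coeff h) • (if f (g * h) = t then ex (lam (ζ (g * h))) else 0)
        = ∑ q ∈ α.coeff.support.image f, ∑ r ∈ β.coeff.support.image f,
          (if q * r = t then Pα q * Pm r (χ q : K) * ex (lam (c q r)) else 0) := by
      rw [← Finset.sum_fiberwise_of_maps_to
        (fun g hg => Finset.mem_image_of_mem f hg : ∀ g ∈ α.coeff.support, f g ∈ _)]
      refine Finset.sum_congr rfl fun q _ => ?_
      rw [Finset.sum_comm]
      rw [← Finset.sum_fiberwise_of_maps_to
        (fun h hh => Finset.mem_image_of_mem f hh : ∀ h ∈ β.coeff.support, f h ∈ _)]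
      refine Finset.sum_congr rfl fun r _ => ?_
      split_ifs with hqr
      · simp only [Pα, Pm]
        rw [mul_assoc, Finset.sum_mul, Finset.sum_comm]
        refine Finset.sum_congr rfl fun g hg => ?_
        rw [Finset.sum_mul, Finset.mul_sum]
        refine Finset.sum_congr rfl fun h hh => ?_
        obtain ⟨hg1, hg2⟩ := Finset.mem_filter.1 hg
        obtain ⟨hh1, hh2⟩ := Finset.mem_filter.1 hh
        rw [map_mul, hg2, hh2, if_pos hqr, hζmul, hg2, hh2, ex_add, ex_add,
          PowerSeries.smul_eq_C_mul, map_mul]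
        ring
      · refine Finset.sum_eq_zero fun h hh => Finset.sum_eq_zero fun g hg => ?_
        obtain ⟨hg1, hg2⟩ := Finset.mem_filter.1 hg
        obtain ⟨hh1, hh2⟩ := Finset.mem_filter.1 hh
        rw [map_mul, hg2, hh2, if_neg hqr, smul_zero]
    have h2 := congrArg (coeff (k + l)) (h0.trans h1)
    rw [map_zero, map_sum] at h2
    refine Eq.trans ?_ h2.symm
    refine Finset.sum_congr rfl fun q _ => ?_
    refine Eq.trans ?_ (map_sum (coeff (k + l)) _ _).symm
    refine Finset.sum_congr rfl fun r _ => ?_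
    split_ifs with hqr
    · rw [coeff_mul_lowest (hk q) (l := l)
        (fun j hj => by rw [hPmc, hl r j hj, mul_zero]) _ (const_ex _), hPmc]
      ring
    · simp
  -- the product in `K[Q]`
  let a : MonoidAlgebra K Q := ∑ q ∈ α.coeff.support.image f,
    MonoidAlgebra.single q (coeff k (Pα q) * (χ q : K) ^ l)
  let b : MonoidAlgebra K Q := ∑ r ∈ β.coeff.support.image f,
    MonoidAlgebra.single r (coeff l (Pβ r))
  have hcoef : ∀ (S : Finset Q) (x : Q → K) (t : Q),
      (∑ q ∈ S, MonoidAlgebra.single q (x q) : MonoidAlgebra K Q).coeff t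
        = if t ∈ S then x t else 0 := by
    intro S x t
    rw [MonoidAlgebra.coeff_sum, Finsupp.finsetSum_apply]
    simp only [MonoidAlgebra.coeff_single, Finsupp.single_apply]
    rw [Finset.sum_ite_eq']
  have hab : a * b = 0 := by
    refine MonoidAlgebra.coeff_injective (Finsupp.ext fun t => ?_)
    rw [Finset.sum_mul_sum, MonoidAlgebra.coeff_sum, Finsupp.finsetSum_apply,
      MonoidAlgebra.coeff_zero, Finsupp.zero_apply]
    refine Eq.trans ?_ (hmain t)
    refine Finset.sum_congr rfl fun q _ => ?_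
    rw [MonoidAlgebra.coeff_sum, Finsupp.finsetSum_apply]
    refine Finset.sum_congr rfl fun r _ => ?_
    rw [MonoidAlgebra.single_mul_single, MonoidAlgebra.coeff_single, Finsupp.single_apply]
  have hzero : ∀ (γ : MonoidAlgebra K G) (q : Q), q ∉ γ.coeff.support.image f →
      (∑ g ∈ γ.coeff.support with f g = q, C (γ.coeff g) * ex (lam (ζ g))) = 0 := by
    intro γ q hq
    rw [Finset.filter_eq_empty_iff.2, Finset.sum_empty]
    intro g hg hgq
    exact hq (Finset.mem_image.2 ⟨g, hg, hgq⟩)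
  have ha : a ≠ 0 := by
    intro h0
    have h1 := hcoef (α.coeff.support.image f)
      (fun q => coeff k (Pα q) * (χ q : K) ^ l) q₁
    change a.coeff q₁ = _ at h1
    rw [h0, MonoidAlgebra.coeff_zero, Finsupp.zero_apply, if_pos] at h1
    · rcases mul_eq_zero.1 h1.symm with h2 | h2
      · exact hq₁ h2
      · exact pow_ne_zero l (χ q₁).ne_zero h2
    · by_contra hq
      exact hq₁ (by simp only [Pα]; rw [hzero α q₁ hq, map_zero])
  have hb : b ≠ 0 := by
    intro h0
    have h1 := hcoef (β.coeff.support.image f) (fun r => coeff l (Pβ r)) r₁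
    change b.coeff r₁ = _ at h1
    rw [h0, MonoidAlgebra.coeff_zero, Finsupp.zero_apply, if_pos] at h1
    · exact hr₁ h1.symm
    · by_contra hq
      exact hr₁ (by simp only [Pβ]; rw [hzero β r₁ hq, map_zero])
  rcases hQ.eq_zero_or_eq_zero_of_mul_eq_zero hab with h | h
  · exact ha h
  · exact hb h

end P201
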